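import Vale.Agent.helper4.GWQ3b
import Vale.Agent.helper4.GWLaws
import Vale.Agent.helper4.Q4Facts

open Filter Topology

namespace Vale.Agent.Results.P154.Q4Ferro

open Vale.Agent.helper4.GW

/-- Nonreconstruction for the ferromagnetic 4-state Potts channel, at and below the Kesten-Stigum bound, on
Galton-Watson trees with an arbitrary offspring law `off` of finite mean `m`, for every eigenvalue
`0 ≤ lam ≤ 725 / 1024` with `m * lam ^ 2 ≤ 1`; with the Poisson law of mean `d` and the law concentrated at `d`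
(the `d`-ary tree) stated separately: there, the bound on `lam` is automatic as soon as `d ≥ 2`.
The same for the 3-state channel, for every eigenvalue `0 ≤ lam < 1`.
The first two clauses of the general statements say that what is seen has total probability one and that the
sum defining `a_n` converges. -/
theorem result :
    (∀ (off : ℕ → ℝ) (m lam : ℝ), (∀ k, 0 ≤ off k) → HasSum off 1 →
      HasSum (fun k : ℕ => (k : ℝ) * off k) m → 0 ≤ lam → lam ≤ 725 / 1024 → m * lam ^ 2 ≤ 1 →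
      (∀ n, HasSum (evidence 4 off lam n) 1) ∧
      (∀ n, Summable fun η : Cfg 4 n => evidence 4 off lam n η *
        ((1 / 2) * ∑ i : Fin 4, |posterior 4 off lam n i η - 1 / ((4 : ℕ) : ℝ)|)) ∧
      Tendsto (advantage 4 off lam) atTop (𝓝 0)) ∧
    (∀ d lam : ℝ, 2 ≤ d → 0 ≤ lam → d * lam ^ 2 ≤ 1 → Tendsto (advantage 4 (poisson d) lam) atTop (𝓝 0)) ∧
    (∀ (d : ℕ) (lam : ℝ), 2 ≤ d → 0 ≤ lam → (d : ℝ) * lam ^ 2 ≤ 1 →
      Tendsto (advantage 4 (dirac d) lam) atTop (𝓝 0)) ∧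
    (∀ (off : ℕ → ℝ) (m lam : ℝ), (∀ k, 0 ≤ off k) → HasSum off 1 →
      HasSum (fun k : ℕ => (k : ℝ) * off k) m → 0 ≤ lam → lam < 1 → m * lam ^ 2 ≤ 1 →
      (∀ n, HasSum (evidence 3 off lam n) 1) ∧
      (∀ n, Summable fun η : Cfg 3 n => evidence 3 off lam n η *
        ((1 / 2) * ∑ i : Fin 3, |posterior 3 off lam n i η - 1 / ((3 : ℕ) : ℝ)|)) ∧
      Tendsto (advantage 3 off lam) atTop (𝓝 0)) ∧
    (∀ d lam : ℝ, 0 ≤ d → 0 ≤ lam → lam < 1 → d * lam ^ 2 ≤ 1 →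
      Tendsto (advantage 3 (poisson d) lam) atTop (𝓝 0)) ∧
    (∀ (d : ℕ) (lam : ℝ), 0 ≤ lam → lam < 1 → (d : ℝ) * lam ^ 2 ≤ 1 →
      Tendsto (advantage 3 (dirac d) lam) atTop (𝓝 0)) := by
  have key : ∀ {d lam : ℝ}, 2 ≤ d → 0 ≤ lam → d * lam ^ 2 ≤ 1 → lam ≤ 725 / 1024 := by
    intro d lam hd h0 h
    by_contra hn
    push Not at hn
    have h1 : (725 / 1024 : ℝ) ^ 2 < lam ^ 2 := pow_lt_pow_left₀ hn (by norm_num) (by norm_num)
    have h2 : 2 * lam ^ 2 ≤ d * lam ^ 2 := mul_le_mul_of_nonneg_right hd (sq_nonneg lam)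
    norm_num at h1
    linarith
  refine ⟨fun off m lam h1 h2 h3 h4 h5 h6 => Vale.Agent.helper4.Q4.nonrec4 Vale.Agent.helper4.Q4.facts4 h1 h2 h3 h4 h5 h6,
    ?_, ?_, fun off m lam h1 h2 h3 h4 h5 h6 => Vale.Agent.helper4.GW3.nonrec3 h1 h2 h3 h4 h5 h6, ?_, ?_⟩
  · intro d lam hd h4 h6
    have h0 : (0 : ℝ) ≤ d := by linarith
    exact (Vale.Agent.helper4.Q4.nonrec4 Vale.Agent.helper4.Q4.facts4 (poisson_nonneg h0) (poisson_hasSum d) (poisson_mean d) h4 (key hd h4 h6)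
      h6).2.2
  · intro d lam hd h4 h6
    have hd' : (2 : ℝ) ≤ d := by exact_mod_cast hd
    exact (Vale.Agent.helper4.Q4.nonrec4 Vale.Agent.helper4.Q4.facts4 (dirac_nonneg d) (dirac_hasSum d) (dirac_mean d) h4 (key hd' h4 h6)
      h6).2.2
  · intro d lam hd h4 h5 h6
    exact (Vale.Agent.helper4.GW3.nonrec3 (poisson_nonneg hd) (poisson_hasSum d) (poisson_mean d) h4 h5
      h6).2.2
  · intro d lam h4 h5 h6
    exact (Vale.Agent.helper4.GW3.nonrec3 (dirac_nonneg d) (dirac_hasSum d) (dirac_mean d) h4 h5 h6).2.2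

end Vale.Agent.Results.P154.Q4Ferro
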