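import Vale.Agent.Results.P154.Q3BinaryNonrec
import Vale.Agent.Results.P154.Q4Ferro

open Filter Topology

namespace Vale.Agent.Results.P154.Combined

open Vale.Agent.helper4.GW

/-- All the results on the Potts channels with three and four colours in one statement: the 3-state
channel on the binary tree for both signs of `lam`, and the ferromagnetic 4-state and 3-state channels
on Galton-Watson trees, Poisson trees and `d`-ary trees (the statement of `Q4Ferro`). -/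
theorem result :
    (∀ lam : ℝ, -1 / 2 ≤ lam → 2 * lam ^ 2 ≤ 1 →
      Tendsto (Vale.Agent.helper4.Potts.advantage 3 2 lam) atTop (𝓝 0)) ∧ (

    (∀ (off : ℕ → ℝ) (m lam : ℝ), (∀ k, 0 ≤ off k) → HasSum off 1 →
      HasSum (fun k : ℕ => (k : ℝ) * off k) m → 0 ≤ lam → lam ≤ 725 / 1024 → m * lam ^ 2 ≤ 1 →
      (∀ n, HasSum (evidence 4 off lam n) 1) ∧
      (∀ n, Summable fun η : Cfg 4 n => evidence 4 off lam n η *
        ((1 / 2) * ∑ i : Fin 4, |posterior 4 off lam n i η - 1 / ((4 : ℕ) : ℝ)|)) ∧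
      Tendsto (advantage 4 off lam) atTop (𝓝 0)) ∧
    (∀ d lam : ℝ, 2 ≤ d → 0 ≤ lam → d * lam ^ 2 ≤ 1 → Tendsto (advantage 4 (poisson d) lam) atTop (𝓝 0)) ∧
    (∀ (d : ℕ) (lam : ℝ), 2 ≤ d → 0 ≤ lam → (d : ℝ) * lam ^ 2 ≤ 1 →
      Tendsto (advantage 4 (dirac d) lam) atTop (𝓝 0)) ∧
    (∀ (off : ℕ → ℝ) (m lam : ℝ), (∀ k, 0 ≤ off k) → HasSum off 1 →
      HasSum (fun k : ℕ => (k : ℝ) * off k) m → 0 ≤ lam → lam < 1 → m * lam ^ 2 ≤ 1 →
      (∀ n, HasSum (evidence 3 off lam n) 1) ∧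
      (∀ n, Summable fun η : Cfg 3 n => evidence 3 off lam n η *
        ((1 / 2) * ∑ i : Fin 3, |posterior 3 off lam n i η - 1 / ((3 : ℕ) : ℝ)|)) ∧
      Tendsto (advantage 3 off lam) atTop (𝓝 0)) ∧
    (∀ d lam : ℝ, 0 ≤ d → 0 ≤ lam → lam < 1 → d * lam ^ 2 ≤ 1 →
      Tendsto (advantage 3 (poisson d) lam) atTop (𝓝 0)) ∧
    (∀ (d : ℕ) (lam : ℝ), 0 ≤ lam → lam < 1 → (d : ℝ) * lam ^ 2 ≤ 1 →
      Tendsto (advantage 3 (dirac d) lam) atTop (𝓝 0))) :=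
  ⟨fun lam h1 h2 => Vale.Agent.Results.P154.Q3BinaryNonrec.result lam h1 h2,
    Vale.Agent.Results.P154.Q4Ferro.result⟩

end Vale.Agent.Results.P154.Combined
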