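import Vale.Agent.helper4.PottsBinary

open Filter Topology

/-- Nonreconstruction for the 3-state Potts channel on the rooted binary tree (`d = 2` children per
vertex) for every admissible eigenvalue `lam` with `2 * lam ^ 2 ≤ 1` (both signs, boundary
included): the quantity `a_n` of the problem tends to `0`. -/
theorem Vale.Agent.Results.P154.Q3BinaryNonrec.result (lam : ℝ) (h1 : -1 / 2 ≤ lam)
    (h2 : 2 * lam ^ 2 ≤ 1) :
    Tendsto (Vale.Agent.helper4.Potts.advantage 3 2 lam) atTop (𝓝 0) :=
  Vale.Agent.helper4.Potts.nonreconstruction h1 h2
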